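import Vale.Agent.Lib.P039.Switching

namespace Vale.Agent.Results.P039.QuadClassHamiltonian

/-- **Hamiltonicity when one colour class consists of quadrilaterals (edge-colouring form).**
Let `G` be a finite connected bipartite graph and `c` a symmetric colouring of its edges by
`Fin 3` such that every vertex has exactly one incident edge of each colour (so `G` is cubic
and `c` is a proper 3-edge-colouring). If every walk whose four edges have colours
`0, 2, 0, 2` is closed (every `{0, 2}`-bicoloured cycle is a 4-cycle), then `G` is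
Hamiltonian. -/
theorem result (V : Type) [Fintype V] [DecidableEq V] (G : SimpleGraph V)
    (hconn : G.Connected) (hbip : G.IsBipartite)
    (c : V → V → Fin 3) (hsymm : ∀ u v, c u v = c v u)
    (hcol : ∀ (v : V) (i : Fin 3), ∃! w, G.Adj v w ∧ c v w = i)
    (hquad : ∀ v₁ v₂ v₃ v₄ v₅ : V, G.Adj v₁ v₂ → c v₁ v₂ = 0 → G.Adj v₂ v₃ → c v₂ v₃ = 2 →
      G.Adj v₃ v₄ → c v₃ v₄ = 0 → G.Adj v₄ v₅ → c v₄ v₅ = 2 → v₅ = v₁) :
    G.IsHamiltonian :=
  Vale.Agent.Lib.P039.isHamiltonian_of_edge_colouring G hconn hbip c hsymm hcol hquad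

end Vale.Agent.Results.P039.QuadClassHamiltonian
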